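import Mathlib

namespace Vale.Agent.Results.P125.SmallConstant

open Finset

/-- Markov type `p` with constant `K` (Ball 1992): the inequality for all finite stationary
reversible chains `(π, P)`, all maps `f` into `X` and all times `t ≥ 1`. -/
def HasMarkovType (X : Type*) [NormedAddCommGroup X] (p K : ℝ) : Prop :=
  ∀ (S : Type) [Fintype S] [DecidableEq S] (π : S → ℝ) (P : Matrix S S ℝ),
    (∀ i, 0 ≤ π i) → ∑ i, π i = 1 → (∀ i j, 0 ≤ P i j) → (∀ i, ∑ j, P i j = 1) →
    (∀ i j, π i * P i j = π j * P j i) →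
    ∀ (f : S → X) (t : ℕ), 1 ≤ t →
      ∑ i, ∑ j, π i * (P ^ t) i j * ‖f j - f i‖ ^ p ≤
        K ^ p * t * ∑ i, ∑ j, π i * P i j * ‖f j - f i‖ ^ p

/-- James `J`-convexity: for some `n ≥ 2` and `ε > 0`, every `x_1, …, x_n` in the unit ball
admit `1 ≤ k ≤ n` with `‖x_1 + ⋯ + x_k - x_{k+1} - ⋯ - x_n‖ ≤ n (1 - ε)`. -/
def JConvex (X : Type*) [NormedAddCommGroup X] : Prop :=
  ∃ (n : ℕ) (ε : ℝ), 2 ≤ n ∧ 0 < ε ∧ ∀ x : Fin n → X, (∀ i, ‖x i‖ ≤ 1) →
    ∃ k : ℕ, 1 ≤ k ∧ k ≤ n ∧ ‖∑ i : Fin n, (if i.val < k then x i else - x i)‖ ≤ n * (1 - ε)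

section aux

variable {X : Type*} [NormedAddCommGroup X] {N : ℕ}

/-- flip coordinate `i` -/
def flip (x : Fin N → Bool) (i : Fin N) : Fin N → Bool := Function.update x i (!x i)

/-- the linear-type map on the cube -/
def cubeMap (v : Fin N → X) (x : Fin N → Bool) : X := ∑ l, if x l then v l else 0

/-- the increment -/
def incr (v : Fin N → X) (x : Fin N → Bool) (i : Fin N) : X := if x i then - v i else v i

lemma cubeMap_flip (v : Fin N → X) (x : Fin N → Bool) (i : Fin N) :
    cubeMap v (flip x i) = cubeMap v x + incr v x i := by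
  have h : cubeMap v (flip x i) - cubeMap v x = ∑ l, if l = i then incr v x i else 0 := by
    unfold cubeMap
    rw [← Finset.sum_sub_distrib]
    apply Finset.sum_congr rfl
    intro l _
    by_cases hl : l = i
    · subst hl
      unfold flip incr
      cases hx : x l <;> simp
    · unfold flip
      simp [hl]
  rw [Finset.sum_ite_eq' ] at h
  simp at h
  rw [← h]; abel

lemma flip_flip_iff (x y : Fin N → Bool) (i : Fin N) : y = flip x i ↔ x = flip y i := by
  unfold flip
  constructor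
  · intro h
    subst h
    funext l
    by_cases hl : l = i
    · subst hl; simp
    · simp [Function.update_of_ne hl]
  · intro h
    subst h
    funext l
    by_cases hl : l = i
    · subst hl; simp
    · simp [Function.update_of_ne hl]

lemma incr_flip_of_ne (v : Fin N → X) (x : Fin N → Bool) {i j : Fin N} (h : j ≠ i) :
    incr v (flip x i) j = incr v x j := by
  unfold incr flip
  simp [Function.update_of_ne h]

/-- transition matrix of the walk on the cube -/
noncomputable def cubeP (N : ℕ) : Matrix (Fin N → Bool) (Fin N → Bool) ℝ :=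
  fun x y => (N : ℝ)⁻¹ * ∑ i : Fin N, if y = flip x i then 1 else 0

lemma cubeP_sum (x : Fin N → Bool) (g : (Fin N → Bool) → ℝ) :
    ∑ y, cubeP N x y * g y = (N : ℝ)⁻¹ * ∑ i, g (flip x i) := by
  unfold cubeP
  have : ∀ y, (N : ℝ)⁻¹ * (∑ i : Fin N, if y = flip x i then (1 : ℝ) else 0) * g y
      = (N : ℝ)⁻¹ * ∑ i : Fin N, if y = flip x i then g y else 0 := by
    intro y
    rw [mul_assoc, Finset.sum_mul]
    congr 1
    apply Finset.sum_congr rfl
    intro i _
    split_ifs <;> simp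
  simp_rw [this]
  rw [← Finset.mul_sum, Finset.sum_comm]
  congr 1
  apply Finset.sum_congr rfl
  intro i _
  rw [Finset.sum_ite_eq']
  simp

lemma tri (s : Fin N → X) (hs : ∀ l, ‖s l‖ ≤ 1) {i j : Fin N} (hij : i ≠ j) :
    ‖∑ l, s l‖ ≤ ‖s i + s j‖ + ((N : ℝ) - 2) := by
  have h1 : ∑ l, s l = (s i + s j) + ∑ l ∈ (univ.erase i).erase j, s l := by
    rw [← Finset.add_sum_erase univ s (mem_univ i),
      ← Finset.add_sum_erase (univ.erase i) s (Finset.mem_erase.mpr ⟨hij.symm, mem_univ j⟩)]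
    abel
  rw [h1]
  have h2 : ‖∑ l ∈ (univ.erase i).erase j, s l‖ ≤ (N : ℝ) - 2 := by
    calc ‖∑ l ∈ (univ.erase i).erase j, s l‖ ≤ ∑ l ∈ (univ.erase i).erase j, ‖s l‖ :=
          norm_sum_le _ _
      _ ≤ ∑ l ∈ (univ.erase i).erase j, (1 : ℝ) := Finset.sum_le_sum (fun l _ => hs l)
      _ = (N : ℝ) - 2 := by
          rw [Finset.sum_const, Finset.card_erase_of_mem
            (Finset.mem_erase.mpr ⟨hij.symm, mem_univ j⟩), Finset.card_erase_of_mem (mem_univ i)]
          simp
          have hN : 2 ≤ N := by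
            rcases Nat.lt_or_ge N 2 with h | h
            · exfalso
              apply hij
              have hi := i.isLt
              have hj := j.isLt
              apply Fin.ext
              omega
            · exact h
          have : ((N - 1 - 1 : ℕ) : ℝ) = (N : ℝ) - 2 := by
            have : N - 1 - 1 = N - 2 := by omega
            rw [this, Nat.cast_sub hN]; norm_num
          exact this
  calc ‖s i + s j + ∑ l ∈ (univ.erase i).erase j, s l‖
      ≤ ‖s i + s j‖ + ‖∑ l ∈ (univ.erase i).erase j, s l‖ := norm_add_le _ _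
    _ ≤ _ := by linarith

lemma pair_bound (v : Fin N → X) (hv : ∀ l, ‖v l‖ ≤ 1) (c : ℝ)
    (hJ : ∀ k : ℕ, 1 ≤ k → k ≤ N →
      (N : ℝ) - (2 - c) < ‖∑ l : Fin N, (if l.val < k then v l else - v l)‖)
    {i j : Fin N} (hij : i < j) : c ≤ ‖v i + v j‖ ∧ c ≤ ‖v i - v j‖ := by
  have hne : i ≠ j := ne_of_lt hij
  have hjN := j.isLt
  have hij' : i.val < j.val := hij
  constructor
  · have h1 := hJ N (by omega) le_rfl
    have h2 := tri (fun l : Fin N => if l.val < N then v l else - v l)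
      (by intro l; simp [l.isLt, hv l]) hne
    simp only [i.isLt, j.isLt, if_true] at h2
    linarith
  · have h1 := hJ j.val (by omega) (by omega)
    have h2 := tri (fun l : Fin N => if l.val < j.val then v l else - v l)
      (by intro l; split_ifs <;> simp [hv l]) hne
    simp only [hij', if_true, lt_irrefl, if_false] at h2
    rw [← sub_eq_add_neg] at h2
    linarith

lemma pair_bound' (v : Fin N → X) (hv : ∀ l, ‖v l‖ ≤ 1) (c : ℝ)
    (hJ : ∀ k : ℕ, 1 ≤ k → k ≤ N →
      (N : ℝ) - (2 - c) < ‖∑ l : Fin N, (if l.val < k then v l else - v l)‖)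
    (x : Fin N → Bool) {i j : Fin N} (hij : i ≠ j) : c ≤ ‖incr v x i + incr v x j‖ := by
  have key : c ≤ ‖v i + v j‖ ∧ c ≤ ‖v i - v j‖ := by
    rcases lt_or_gt_of_ne hij with h | h
    · exact pair_bound v hv c hJ h
    · have := pair_bound v hv c hJ h
      rw [add_comm, norm_sub_rev]
      exact this
  unfold incr
  cases x i <;> cases x j <;> simp only [if_true, if_false, Bool.false_eq_true]
  · exact key.1
  · rw [← sub_eq_add_neg]; exact key.2
  · rw [add_comm, ← sub_eq_add_neg, norm_sub_rev]; exact key.2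
  · rw [← neg_add, norm_neg]; exact key.1

lemma cube_ineq (p K : ℝ) (hp : 0 ≤ p) (hK : 0 ≤ K) (h : HasMarkovType X p K) (hN : 2 ≤ N)
    (v : Fin N → X) (hv : ∀ l, ‖v l‖ ≤ 1) (c : ℝ) (hc : 0 ≤ c)
    (hpair : ∀ (x : Fin N → Bool) (i j : Fin N), i ≠ j → c ≤ ‖incr v x i + incr v x j‖) :
    (1 - (N : ℝ)⁻¹) * c ^ p ≤ 2 * K ^ p := by
  have hN0 : (0 : ℝ) < N := by exact_mod_cast (by omega : 0 < N)
  set M : ℝ := (Fintype.card (Fin N → Bool) : ℝ) with hM
  have hM0 : 0 < M := by
    rw [hM]; exact_mod_cast Fintype.card_pos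
  have hsym : ∀ x y, cubeP N x y = cubeP N y x := by
    intro x y
    unfold cubeP
    congr 1
    apply Finset.sum_congr rfl
    intro i _
    simp only [flip_flip_iff x y i]
  have hrow : ∀ x, ∑ y, cubeP N x y = 1 := by
    intro x
    have := cubeP_sum x (fun _ => (1 : ℝ))
    simp only [mul_one] at this
    rw [this]
    simp
    field_simp
  have hmain := h (Fin N → Bool) (fun _ => M⁻¹) (cubeP N)
    (fun _ => by positivity)
    (by rw [Finset.sum_const, hM]; simp)
    (fun x y => by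
      unfold cubeP
      apply mul_nonneg (by positivity)
      apply Finset.sum_nonneg
      intro i _
      split_ifs <;> norm_num)
    hrow
    (fun x y => by rw [hsym x y])
    (cubeMap v) 2 (by norm_num)
  -- right-hand side
  have hR : ∑ x, ∑ y, M⁻¹ * cubeP N x y * ‖cubeMap v y - cubeMap v x‖ ^ p ≤ 1 := by
    have h1 : ∀ x, ∑ y, M⁻¹ * cubeP N x y * ‖cubeMap v y - cubeMap v x‖ ^ p ≤ M⁻¹ := by
      intro x
      have e : ∑ y, M⁻¹ * cubeP N x y * ‖cubeMap v y - cubeMap v x‖ ^ p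
          = M⁻¹ * ∑ y, cubeP N x y * ‖cubeMap v y - cubeMap v x‖ ^ p := by
        rw [Finset.mul_sum]
        apply Finset.sum_congr rfl
        intro y _
        ring
      rw [e, cubeP_sum x (fun y => ‖cubeMap v y - cubeMap v x‖ ^ p)]
      have h2 : ∑ i, ‖cubeMap v (flip x i) - cubeMap v x‖ ^ p ≤ ∑ i : Fin N, (1 : ℝ) := by
        apply Finset.sum_le_sum
        intro i _
        rw [cubeMap_flip]
        have : cubeMap v x + incr v x i - cubeMap v x = incr v x i := by abel
        rw [this]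
        apply Real.rpow_le_one (norm_nonneg _) _ hp
        unfold incr
        split_ifs <;> simp [hv i]
      simp only [Finset.sum_const, Finset.card_univ, Fintype.card_fin, nsmul_eq_mul, mul_one] at h2
      have h3 : (N : ℝ)⁻¹ * ∑ i, ‖cubeMap v (flip x i) - cubeMap v x‖ ^ p ≤ 1 := by
        calc (N : ℝ)⁻¹ * ∑ i, ‖cubeMap v (flip x i) - cubeMap v x‖ ^ p ≤ (N : ℝ)⁻¹ * N :=
              mul_le_mul_of_nonneg_left h2 (by positivity)
          _ = 1 := by field_simp
      calc M⁻¹ * ((N : ℝ)⁻¹ * ∑ i, ‖cubeMap v (flip x i) - cubeMap v x‖ ^ p) ≤ M⁻¹ * 1 :=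
            mul_le_mul_of_nonneg_left h3 (by positivity)
        _ = M⁻¹ := by ring
    calc ∑ x, ∑ y, M⁻¹ * cubeP N x y * ‖cubeMap v y - cubeMap v x‖ ^ p
        ≤ ∑ _x : Fin N → Bool, M⁻¹ := Finset.sum_le_sum (fun x _ => h1 x)
      _ = 1 := by rw [Finset.sum_const, hM]; simp
  -- left-hand side
  have hL : (1 - (N : ℝ)⁻¹) * c ^ p
      ≤ ∑ x, ∑ y, M⁻¹ * (cubeP N ^ 2) x y * ‖cubeMap v y - cubeMap v x‖ ^ p := by
    have h1 : ∀ x, M⁻¹ * ((1 - (N : ℝ)⁻¹) * c ^ p)
        ≤ ∑ y, M⁻¹ * (cubeP N ^ 2) x y * ‖cubeMap v y - cubeMap v x‖ ^ p := by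
      intro x
      have e : ∑ y, M⁻¹ * (cubeP N ^ 2) x y * ‖cubeMap v y - cubeMap v x‖ ^ p
          = M⁻¹ * ((N : ℝ)⁻¹ * ∑ i, ((N : ℝ)⁻¹ *
              ∑ j, ‖cubeMap v (flip (flip x i) j) - cubeMap v x‖ ^ p)) := by
        rw [← cubeP_sum x (fun z => (N : ℝ)⁻¹ * ∑ j, ‖cubeMap v (flip z j) - cubeMap v x‖ ^ p)]
        have : ∀ z, (N : ℝ)⁻¹ * ∑ j, ‖cubeMap v (flip z j) - cubeMap v x‖ ^ p
            = ∑ y, cubeP N z y * ‖cubeMap v y - cubeMap v x‖ ^ p := by
          intro z
          rw [cubeP_sum z (fun y => ‖cubeMap v y - cubeMap v x‖ ^ p)]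
        simp_rw [this]
        rw [Finset.mul_sum]
        simp_rw [Finset.mul_sum]
        rw [Finset.sum_comm]
        apply Finset.sum_congr rfl
        intro y _
        rw [pow_two, Matrix.mul_apply, Finset.mul_sum, Finset.sum_mul]
        apply Finset.sum_congr rfl
        intro z _
        ring
      rw [e]
      apply mul_le_mul_of_nonneg_left _ (by positivity)
      have h2 : ∀ i, ((N : ℝ) - 1) * c ^ p
          ≤ ∑ j, ‖cubeMap v (flip (flip x i) j) - cubeMap v x‖ ^ p := by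
        intro i
        calc ((N : ℝ) - 1) * c ^ p = ∑ j ∈ univ.erase i, c ^ p := by
              rw [Finset.sum_const, Finset.card_erase_of_mem (mem_univ i)]
              simp
              left
              rw [Nat.cast_sub (by omega)]; norm_num
          _ ≤ ∑ j ∈ univ.erase i, ‖cubeMap v (flip (flip x i) j) - cubeMap v x‖ ^ p := by
              apply Finset.sum_le_sum
              intro j hj
              have hji : j ≠ i := (Finset.mem_erase.mp hj).1
              rw [cubeMap_flip, cubeMap_flip, incr_flip_of_ne v x hji]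
              have : cubeMap v x + incr v x i + incr v x j - cubeMap v x
                  = incr v x i + incr v x j := by abel
              rw [this]
              exact Real.rpow_le_rpow hc (hpair x i j hji.symm) hp
          _ ≤ ∑ j, ‖cubeMap v (flip (flip x i) j) - cubeMap v x‖ ^ p := by
              apply Finset.sum_le_sum_of_subset_of_nonneg (Finset.erase_subset _ _)
              intro j _ _
              positivity
      have h3 : ∑ _i : Fin N, (N : ℝ)⁻¹ * (((N : ℝ) - 1) * c ^ p)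
          ≤ ∑ i, ((N : ℝ)⁻¹ * ∑ j, ‖cubeMap v (flip (flip x i) j) - cubeMap v x‖ ^ p) := by
        apply Finset.sum_le_sum
        intro i _
        exact mul_le_mul_of_nonneg_left (h2 i) (by positivity)
      have h4 : (1 - (N : ℝ)⁻¹) * c ^ p
          = (N : ℝ)⁻¹ * ∑ _i : Fin N, (N : ℝ)⁻¹ * (((N : ℝ) - 1) * c ^ p) := by
        rw [Finset.sum_const]
        simp
        field_simp
      rw [h4]
      exact mul_le_mul_of_nonneg_left h3 (by positivity)
    calc (1 - (N : ℝ)⁻¹) * c ^ p = ∑ _x : Fin N → Bool, M⁻¹ * ((1 - (N : ℝ)⁻¹) * c ^ p) := by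
          rw [Finset.sum_const, hM]
          simp
      _ ≤ _ := Finset.sum_le_sum (fun x _ => h1 x)
  have hKp : 0 ≤ K ^ p := Real.rpow_nonneg hK p
  calc (1 - (N : ℝ)⁻¹) * c ^ p
      ≤ ∑ x, ∑ y, M⁻¹ * (cubeP N ^ 2) x y * ‖cubeMap v y - cubeMap v x‖ ^ p := hL
    _ ≤ K ^ p * (2 : ℕ) * ∑ x, ∑ y, M⁻¹ * cubeP N x y * ‖cubeMap v y - cubeMap v x‖ ^ p := hmain
    _ ≤ K ^ p * (2 : ℕ) * 1 := mul_le_mul_of_nonneg_left hR (by positivity)
    _ = 2 * K ^ p := by push_cast; ring

end aux

/-- If a real normed space has Markov type `p > 1` with a constant `K` such that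
`K ^ p < 2 ^ (p - 1)`, then it is `J`-convex. -/
theorem result (X : Type*) [NormedAddCommGroup X] [NormedSpace ℝ X] (p K : ℝ) (hp : 1 < p)
    (hK : 0 ≤ K) (hKp : K ^ p < 2 ^ (p - 1)) (h : HasMarkovType X p K) : JConvex X := by
  have hp0 : 0 < p := by linarith
  have h2p : (2 : ℝ) ^ p = 2 * 2 ^ (p - 1) := by
    rw [Real.rpow_sub_one (by norm_num : (2 : ℝ) ≠ 0)]; ring
  have hKp0 : 0 ≤ K ^ p := Real.rpow_nonneg hK p
  set m : ℝ := (2 * K ^ p + 2 ^ p) / 2 with hm
  have hm1 : 2 * K ^ p < m := by rw [hm]; linarith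
  have hm2 : m < 2 ^ p := by rw [hm]; linarith
  have hm0 : 0 < m := by linarith
  set c : ℝ := m ^ p⁻¹ with hc
  have hcp : c ^ p = m := Real.rpow_inv_rpow hm0.le hp0.ne'
  have hc0 : 0 ≤ c := Real.rpow_nonneg hm0.le _
  have hc2 : c < 2 := by
    have := Real.rpow_lt_rpow hm0.le hm2 (inv_pos.mpr hp0)
    rwa [Real.rpow_rpow_inv (by norm_num) hp0.ne'] at this
  obtain ⟨N0, hN0⟩ := exists_nat_gt (m / (m - 2 * K ^ p))
  set N : ℕ := N0 + 2 with hN
  have hNr : m / (m - 2 * K ^ p) < (N : ℝ) := by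
    rw [hN]; push_cast; linarith
  have hNpos : (0 : ℝ) < N := by rw [hN]; positivity
  refine ⟨N, (2 - c) / N, by omega, by apply div_pos <;> linarith, ?_⟩
  intro v hv
  by_contra hcon
  push Not at hcon
  have hJ : ∀ k : ℕ, 1 ≤ k → k ≤ N →
      (N : ℝ) - (2 - c) < ‖∑ l : Fin N, (if l.val < k then v l else - v l)‖ := by
    intro k hk1 hk2
    have := hcon k hk1 hk2
    have e : (N : ℝ) * (1 - (2 - c) / N) = (N : ℝ) - (2 - c) := by field_simp
    rwa [e] at this
  have hfin := cube_ineq p K hp0.le hK h (by omega : 2 ≤ N) v hv c hc0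
    (fun x i j hij => pair_bound' v hv c hJ x hij)
  rw [hcp] at hfin
  have hd : 0 < m - 2 * K ^ p := by linarith
  have h5 : m < (N : ℝ) * (m - 2 * K ^ p) := by
    rwa [div_lt_iff₀ hd] at hNr
  have h6 : (1 - (N : ℝ)⁻¹) * m = m - m / N := by field_simp
  rw [h6] at hfin
  have h7 : m / N < m - 2 * K ^ p := by
    rw [div_lt_iff₀ hNpos]; linarith
  linarith

end Vale.Agent.Results.P125.SmallConstant
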